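import Vale.Agent.P181.H881.AHKit

/-!
P181: row TH of `H303.Spec`, one step of theta extraction.
-/

set_option autoImplicit false

namespace Vale.Agent.P181.H881

open Finset Vale.Agent.P181.H303

section

variable {A : Type*} [CommRing A] [Algebra ℂ A] {s τ : ℕ}

/-- Basis changes: a monomial of degree `N + c` is a combination of products of `c` forms with
distinct labels in `J` times monomials of degree `N`. -/
theorem basis_change (L : Fin τ → Fin s → ℂ) (v : ℝ)
    (hL : ∀ S : Finset (Fin τ), s ≤ S.card → ∀ j : Fin s, ∃ β : Fin τ → ℂ,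
      (∀ t, t ∉ S → β t = 0) ∧ ∑ t, ‖β t‖ ≤ v ∧
      ∀ i : Fin s, ∑ t, β t * L t i = if i = j then 1 else 0)
    (z : Fin s → A) (J : Finset (Fin τ)) :
    ∀ (c N : ℕ), c + s ≤ J.card + 1 → ∀ m ∈ Mono z (N + c),
      m ∈ AH {x | ∃ (J' : Finset (Fin τ)) (R : A), J' ⊆ J ∧ J'.card = c ∧ R ∈ Mono z N ∧
        x = (∏ t ∈ J', ∑ j, L t j • z j) * R} (v ^ c) := by
  classical
  intro c
  induction c with
  | zero =>
    intro N _ m hm
    rw [pow_zero]
    exact ah_mem ⟨∅, m, Finset.empty_subset _, Finset.card_empty, hm, by simp⟩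
  | succ c ih =>
    intro N hc m hm
    have hm' : m ∈ Mono z ((N + 1) + c) := by
      have h0 : N + 1 + c = N + (c + 1) := by omega
      rw [h0]
      exact hm
    have h1 := ih (N + 1) (by omega) m hm'
    rw [pow_succ]
    obtain ⟨J1, -, hJ1⟩ : ∃ J1 : Finset (Fin τ), J1 ⊆ J ∧ J1.card = s :=
      Finset.exists_subset_card_eq (by omega)
    rcases Nat.eq_zero_or_pos s with hs | hs
    · exfalso
      subst hs
      obtain ⟨α, hα, -⟩ := hm
      simp at hα
    have hv : 0 ≤ v := by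
      obtain ⟨β, -, hβ, -⟩ := hL J1 hJ1.ge ⟨0, hs⟩
      exact le_trans (Finset.sum_nonneg fun i _ => norm_nonneg _) hβ
    refine ah_bind hv h1 ?_
    rintro _ ⟨J', R, hJ', hcard, hR, rfl⟩
    obtain ⟨j, R', hR', rfl⟩ := mono_succ hR
    have hS : s ≤ (J \ J').card := by
      have h2 := Finset.card_sdiff_add_card_inter J J'
      have h3 : (J ∩ J').card ≤ J'.card := Finset.card_le_card Finset.inter_subset_right
      omega
    obtain ⟨β, hβ0, hβ, hβL⟩ := hL (J \ J') hS j
    have hz : z j = ∑ t ∈ J \ J', β t • ∑ i, L t i • z i := by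
      have h4 : ∑ t ∈ J \ J', β t • ∑ i, L t i • z i = ∑ t, β t • ∑ i, L t i • z i := by
        refine Finset.sum_subset (Finset.subset_univ _) fun t _ ht => ?_
        rw [hβ0 t ht, zero_smul]
      rw [h4]
      have h5 : ∑ t, β t • ∑ i, L t i • z i = ∑ i, (∑ t, β t * L t i) • z i := by
        simp only [Finset.smul_sum, smul_smul, Finset.sum_smul]
        exact Finset.sum_comm
      rw [h5]
      simp only [hβL]
      simp
    have hx : (∏ t ∈ J', ∑ j, L t j • z j) * (z j * R')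
        = ∑ t ∈ J \ J', β t • ((∏ t ∈ insert t J', ∑ j, L t j • z j) * R') := by
      rw [hz, Finset.sum_mul, Finset.mul_sum]
      refine Finset.sum_congr rfl fun t ht => ?_
      rw [Finset.prod_insert (Finset.mem_sdiff.mp ht).2]
      simp only [smul_mul_assoc, mul_smul_comm]
      congr 1
      ring
    rw [hx]
    refine ah_finset _ _ _ (fun t ht => ?_) ?_
    · rw [Finset.mem_sdiff] at ht
      refine ⟨insert t J', R', ?_, ?_, hR', rfl⟩
      · exact Finset.insert_subset ht.1 hJ'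
      · rw [Finset.card_insert_of_notMem ht.2, hcard]
    · refine le_trans ?_ hβ
      exact Finset.sum_le_sum_of_subset_of_nonneg (Finset.subset_univ _)
        fun _ _ _ => norm_nonneg _

/-- Expansion of forms of norm at most one. -/
theorem expand (L : Fin τ → Fin s → ℂ) (hL : ∀ t, ∑ j, ‖L t j‖ ≤ 1) (z : Fin s → A)
    (K : Finset (Fin τ)) (N : ℕ) (R : A) (hR : R ∈ Mono z N) :
    (∏ t ∈ K, ∑ j, L t j • z j) * R ∈ AH (Mono z (K.card + N)) 1 := by
  classical
  induction K using Finset.induction_on with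
  | empty =>
    rw [Finset.prod_empty, one_mul, Finset.card_empty, Nat.zero_add]
    exact ah_mem hR
  | insert t K ht ih =>
    rw [Finset.prod_insert ht, mul_assoc, Finset.card_insert_of_notMem ht]
    have h1 := ah_mono_mul (ah_lin (z := z) (L t) (hL t)) ih
    have h2 : 1 + (K.card + N) = K.card + 1 + N := by omega
    rw [h2, one_mul] at h1
    exact h1

/-- Stage `i` of the extraction. -/
def Stg {W : Type*} [AddCommGroup W] [Module ℂ W]
    (T : MultilinearMap ℂ (fun _ : Fin s => A) W) (L : Fin τ → Fin s → ℂ) (z : Fin s → A)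
    (M i : ℕ) : Set W :=
  {x | ∃ (J : Finset (Fin τ)) (Q : Fin s → A), J.card = (s - i) * (s - 1) + 1 ∧
    (∀ r : Fin s, (r : ℕ) < i → ∃ (N : ℕ) (R : A), N + J.card = M + 1 ∧ R ∈ Mono z N ∧
      Q r = (∏ t ∈ J, ∑ j, L t j • z j) * R) ∧
    (∀ r : Fin s, i ≤ (r : ℕ) → Q r ∈ Mono z (M + 1)) ∧ x = T Q}

theorem step {W : Type*} [AddCommGroup W] [Module ℂ W]
    (T : MultilinearMap ℂ (fun _ : Fin s => A) W) (L : Fin τ → Fin s → ℂ) (v : ℝ) (hv : 1 ≤ v)
    (hL1 : ∀ t, ∑ j, ‖L t j‖ ≤ 1)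
    (hL : ∀ S : Finset (Fin τ), s ≤ S.card → ∀ j : Fin s, ∃ β : Fin τ → ℂ,
      (∀ t, t ∉ S → β t = 0) ∧ ∑ t, ‖β t‖ ≤ v ∧
      ∀ i : Fin s, ∑ t, β t * L t i = if i = j then 1 else 0)
    (z : Fin s → A) (M : ℕ) (hM : (s - 1) * (s - 1) ≤ M) (i : ℕ) (hi : i < s) (x : W)
    (hx : x ∈ Stg T L z M i) : x ∈ AH (Stg T L z M (i + 1)) (v ^ (s * s)) := by
  classical
  obtain ⟨J, Q, hJ, hlo, hhi, rfl⟩ := hx
  obtain ⟨c, hc⟩ : ∃ c, c = (s - (i + 1)) * (s - 1) + 1 := ⟨_, rfl⟩
  have hsub : (s - i) * (s - 1) = (s - (i + 1)) * (s - 1) + (s - 1) := by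
    have h1 : s - i = (s - (i + 1)) + 1 := by omega
    rw [h1, Nat.add_mul, Nat.one_mul]
  have hcM : c ≤ M + 1 := by
    have h1 : (s - (i + 1)) * (s - 1) ≤ (s - 1) * (s - 1) :=
      Nat.mul_le_mul_right _ (by omega)
    omega
  have hcs : c ≤ s * s := by
    have h1 : (s - (i + 1)) * (s - 1) ≤ (s - 1) * (s - 1) :=
      Nat.mul_le_mul_right _ (by omega)
    have h2 : (s - 1) * (s - 1) + 1 ≤ s * s := by
      obtain ⟨k, rfl⟩ : ∃ k, s = k + 1 := ⟨s - 1, by omega⟩
      simp only [Nat.add_sub_cancel]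
      nlinarith
    omega
  obtain ⟨N, hN⟩ : ∃ N, N + c = M + 1 := ⟨M + 1 - c, by omega⟩
  -- row `i`
  have hrow : Q ⟨i, hi⟩ ∈ AH {x | ∃ (J' : Finset (Fin τ)) (R : A), J' ⊆ J ∧ J'.card = c ∧
      R ∈ Mono z N ∧ x = (∏ t ∈ J', ∑ j, L t j • z j) * R} (v ^ c) := by
    refine basis_change L v hL z J c N (by omega) _ ?_
    rw [hN]
    exact hhi ⟨i, hi⟩ le_rfl
  have h1 := ah_update T Q ⟨i, hi⟩ hrow
  have h2 : T Q ∈ AH (Stg T L z M (i + 1)) (v ^ c * 1) := by
    refine ah_bind zero_le_one h1 ?_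
    rintro _ ⟨g, ⟨J', R, hJ'J, hJ'c, hR, rfl⟩, rfl⟩
    have h3 := ah_multi T
      (fun r : Fin s => {y : A | ((r : ℕ) < i + 1 → ∃ (N : ℕ) (R : A), N + J'.card = M + 1 ∧
          R ∈ Mono z N ∧ y = (∏ t ∈ J', ∑ j, L t j • z j) * R) ∧
        (i + 1 ≤ (r : ℕ) → y ∈ Mono z (M + 1))}) (fun _ => 1)
      (Function.update Q ⟨i, hi⟩ ((∏ t ∈ J', ∑ j, L t j • z j) * R)) (by
        intro r
        rcases lt_trichotomy (r : ℕ) i with hr | hr | hr
        · -- lower rows
          have hne : r ≠ ⟨i, hi⟩ := by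
            intro h
            rw [h] at hr
            exact lt_irrefl _ hr
          rw [Function.update_of_ne hne]
          obtain ⟨N1, R1, hN1, hR1, hQ1⟩ := hlo r hr
          rw [hQ1, ← Finset.prod_sdiff hJ'J, mul_comm (∏ t ∈ J \ J', ∑ j, L t j • z j),
            mul_assoc]
          refine ah_mul_left _ (expand L hL1 z (J \ J') N1 R1 hR1) ?_
          intro g hg
          refine ⟨fun _ => ⟨(J \ J').card + N1, g, ?_, hg, rfl⟩, fun h => by omega⟩
          have h4 := Finset.card_sdiff_add_card_eq_card hJ'J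
          omega
        · have he : r = ⟨i, hi⟩ := Fin.ext hr
          rw [he, Function.update_self]
          refine ah_mem ⟨fun _ => ⟨N, R, by omega, hR, rfl⟩, fun h => ?_⟩
          simp only at h
          omega
        · have hne : r ≠ ⟨i, hi⟩ := by
            intro h
            rw [h] at hr
            exact lt_irrefl _ hr
          rw [Function.update_of_ne hne]
          exact ah_mem ⟨fun h => by omega, fun _ => hhi r hr.le⟩)
    rw [Finset.prod_const_one] at h3
    refine ah_subset ?_ h3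
    rintro _ ⟨Q', hQ', rfl⟩
    exact ⟨J', Q', by rw [hJ'c, hc], fun r hr => (hQ' r).1 hr, fun r hr => (hQ' r).2 hr, rfl⟩
  refine ah_mono ?_ h2
  rw [mul_one]
  exact pow_le_pow_right₀ hv hcs

end

theorem one_le_vv (s : ℕ) (hs : 1 ≤ s) : (1 : ℝ) ≤ (vv s : ℝ) := by
  have h1 : 1 ≤ vv s := by
    unfold vv TT
    exact Nat.one_le_pow _ _ (by positivity)
  exact_mod_cast h1

/-- **Row TH.** -/
theorem rowTH : RowTH := by
  intro s hs L hL1 hL A W _ _ _ _ T z M hM P hP
  have hv := one_le_vv s hs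
  have key : ∀ i, i ≤ s → T P ∈ AH (Stg T L z M i) (((vv s : ℝ) ^ (s * s)) ^ i) := by
    intro i
    induction i with
    | zero =>
      intro _
      rw [pow_zero]
      refine ah_mem ⟨Finset.univ, P, ?_, fun r hr => by omega, fun r _ => hP r, rfl⟩
      rw [Finset.card_univ, Fintype.card_fin]
      rfl
    | succ i ih =>
      intro hi
      rw [pow_succ]
      refine ah_bind (by positivity) (ih (by omega)) ?_
      intro g hg
      exact step T L _ hv hL1 hL z M hM i (by omega) g hg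
  have h1 := key s le_rfl
  rw [← pow_mul] at h1
  have h2 : s * s * s = s * (s * s) := by ring
  rw [h2] at h1
  refine ah_subset ?_ h1
  rintro _ ⟨J, Q, hJ, hlo, -, rfl⟩
  rw [Nat.sub_self, Nat.zero_mul, Nat.zero_add] at hJ
  obtain ⟨t, rfl⟩ := Finset.card_eq_one.mp hJ
  have h3 : ∀ r : Fin s, ∃ R : A, R ∈ Mono z M ∧ Q r = (∑ j, L t j • z j) * R := by
    intro r
    obtain ⟨N, R, hN, hR, hQ⟩ := hlo r r.2
    rw [Finset.card_singleton] at hN
    have h4 : N = M := by omega
    subst h4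
    exact ⟨R, hR, by rw [hQ, Finset.prod_singleton]⟩
  choose R hR hQ using h3
  exact ⟨t, R, hR, congrArg T (funext hQ)⟩

end Vale.Agent.P181.H881

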