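import Vale.Agent.P181.H303.Spec

/-!
P181: tool kit for `AH` and `Mono` of `H303.Spec`.
-/

set_option autoImplicit false

namespace Vale.Agent.P181.H881

open Finset Vale.Agent.P181.H303

section kit

variable {W : Type*} [AddCommGroup W] [Module ℂ W]

theorem ah_fintype {ι : Type*} [Fintype ι] {G : Set W} {c : ℝ} (w : ι → ℂ) (g : ι → W)
    (hg : ∀ i, g i ∈ G) (hw : ∑ i, ‖w i‖ ≤ c) : ∑ i, w i • g i ∈ AH G c := by
  let e := Fintype.equivFin ι
  refine ⟨Fintype.card ι, fun k => w (e.symm k), fun k => g (e.symm k), fun k => hg _, ?_, ?_⟩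
  · rw [Equiv.sum_comp e.symm (fun i => ‖w i‖)]
    exact hw
  · exact (Equiv.sum_comp e.symm (fun i => w i • g i)).symm

theorem ah_finset {ι : Type*} {G : Set W} {c : ℝ} (S : Finset ι) (w : ι → ℂ) (g : ι → W)
    (hg : ∀ i ∈ S, g i ∈ G) (hw : ∑ i ∈ S, ‖w i‖ ≤ c) : ∑ i ∈ S, w i • g i ∈ AH G c := by
  have h := ah_fintype (ι := S) (G := G) (c := c) (fun i => w i) (fun i => g i)
    (fun i => hg i i.2) (by
      rw [Finset.sum_coe_sort S (fun i => ‖w i‖)]
      exact hw)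
  rw [Finset.sum_coe_sort S (fun i => w i • g i)] at h
  exact h

theorem ah_nonneg {G : Set W} {c : ℝ} {x : W} (hx : x ∈ AH G c) : 0 ≤ c := by
  obtain ⟨m, w, g, hg, hw, rfl⟩ := hx
  exact le_trans (Finset.sum_nonneg fun i _ => norm_nonneg _) hw

theorem ah_mono {G : Set W} {c d : ℝ} (h : c ≤ d) {x : W} (hx : x ∈ AH G c) : x ∈ AH G d := by
  obtain ⟨m, w, g, hg, hw, rfl⟩ := hx
  exact ⟨m, w, g, hg, hw.trans h, rfl⟩

theorem ah_subset {G G' : Set W} {c : ℝ} (h : ∀ x ∈ G, x ∈ G') {x : W} (hx : x ∈ AH G c) :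
    x ∈ AH G' c := by
  obtain ⟨m, w, g, hg, hw, rfl⟩ := hx
  exact ⟨m, w, g, fun i => h _ (hg i), hw, rfl⟩

theorem ah_mem {G : Set W} {x : W} (hx : x ∈ G) : x ∈ AH G 1 :=
  ⟨1, fun _ => 1, fun _ => x, fun _ => hx, by simp, by simp⟩

theorem ah_zero {G : Set W} {c : ℝ} (hc : 0 ≤ c) : (0 : W) ∈ AH G c :=
  ⟨0, fun _ => 0, fun _ => 0, fun i => i.elim0, by simpa using hc, by simp⟩

theorem ah_smul {G : Set W} {c : ℝ} {x : W} (hx : x ∈ AH G c) (a : ℂ) :
    a • x ∈ AH G (‖a‖ * c) := by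
  obtain ⟨m, w, g, hg, hw, rfl⟩ := hx
  refine ⟨m, fun i => a * w i, g, hg, ?_, ?_⟩
  · simp only [norm_mul, ← Finset.mul_sum]
    exact mul_le_mul_of_nonneg_left hw (norm_nonneg _)
  · simp only [Finset.smul_sum, smul_smul]

/-- Composition: combinations of combinations. -/
theorem ah_bind {G G' : Set W} {c c' : ℝ} (hc' : 0 ≤ c') {x : W} (hx : x ∈ AH G c)
    (h : ∀ g ∈ G, g ∈ AH G' c') : x ∈ AH G' (c * c') := by
  obtain ⟨m, w, g, hg, hw, rfl⟩ := hx
  have h1 : ∀ i, ∃ (m' : ℕ) (w' : Fin m' → ℂ) (g' : Fin m' → W), (∀ k, g' k ∈ G') ∧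
      ∑ k, ‖w' k‖ ≤ c' ∧ g i = ∑ k, w' k • g' k := fun i => h _ (hg i)
  choose m' w' g' hg' hw' he using h1
  have h2 : ∑ i, w i • g i
      = ∑ p : (Σ i : Fin m, Fin (m' i)), (w p.1 * w' p.1 p.2) • g' p.1 p.2 := by
    rw [Fintype.sum_sigma]
    refine Finset.sum_congr rfl fun i _ => ?_
    rw [he i, Finset.smul_sum]
    exact Finset.sum_congr rfl fun k _ => by rw [smul_smul]
  rw [h2]
  refine ah_fintype _ _ (fun p => hg' p.1 p.2) ?_
  rw [Fintype.sum_sigma]
  calc ∑ i, ∑ k, ‖w i * w' i k‖ = ∑ i, ‖w i‖ * ∑ k, ‖w' i k‖ := by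
        refine Finset.sum_congr rfl fun i _ => ?_
        rw [Finset.mul_sum]
        exact Finset.sum_congr rfl fun k _ => norm_mul _ _
    _ ≤ ∑ i, ‖w i‖ * c' :=
        Finset.sum_le_sum fun i _ => mul_le_mul_of_nonneg_left (hw' i) (norm_nonneg _)
    _ = (∑ i, ‖w i‖) * c' := by rw [Finset.sum_mul]
    _ ≤ c * c' := mul_le_mul_of_nonneg_right hw hc'

/-- Sums. -/
theorem ah_sum {ι : Type*} {G : Set W} (S : Finset ι) (c : ι → ℝ) (x : ι → W)
    (h : ∀ i ∈ S, x i ∈ AH G (c i)) : ∑ i ∈ S, x i ∈ AH G (∑ i ∈ S, c i) := by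
  classical
  induction S using Finset.induction_on with
  | empty => simpa using ah_zero (G := G) (c := 0) le_rfl
  | insert a S ha ih =>
    rw [Finset.sum_insert ha, Finset.sum_insert ha]
    obtain ⟨m, w, g, hg, hw, h1⟩ := h a (Finset.mem_insert_self a S)
    obtain ⟨m', w', g', hg', hw', h2⟩ := ih fun i hi => h i (Finset.mem_insert_of_mem hi)
    have h3 := ah_fintype (ι := Fin m ⊕ Fin m') (G := G) (c := c a + ∑ i ∈ S, c i)
      (Sum.elim w w') (Sum.elim g g') (by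
        rintro (i | i)
        · exact hg i
        · exact hg' i) (by
        rw [Fintype.sum_sum_type]
        exact add_le_add hw hw')
    rw [Fintype.sum_sum_type] at h3
    rw [h1, h2]
    exact h3

variable {A : Type*} [AddCommGroup A] [Module ℂ A]

/-- Image under a linear map. -/
theorem ah_map (f : A →ₗ[ℂ] W) {G : Set A} {G' : Set W} {c : ℝ} {x : A} (hx : x ∈ AH G c)
    (h : ∀ g ∈ G, f g ∈ G') : f x ∈ AH G' c := by
  obtain ⟨m, w, g, hg, hw, rfl⟩ := hx
  refine ⟨m, w, fun i => f (g i), fun i => h _ (hg i), hw, ?_⟩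
  rw [map_sum]
  exact Finset.sum_congr rfl fun i _ => map_smul f _ _

/-- Expansion in one slot. -/
theorem ah_update {s : ℕ} (T : MultilinearMap ℂ (fun _ : Fin s => A) W) (Q : Fin s → A)
    (i : Fin s) {G : Set A} {c : ℝ} (hx : Q i ∈ AH G c) :
    T Q ∈ AH {x | ∃ g ∈ G, x = T (Function.update Q i g)} c := by
  have h := ah_map (T.toLinearMap Q i) (G' := {x | ∃ g ∈ G, x = T (Function.update Q i g)}) hx
    (fun g hg => ⟨g, hg, rfl⟩)
  have h2 : T.toLinearMap Q i (Q i) = T Q := by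
    rw [MultilinearMap.toLinearMap_apply, Function.update_eq_self]
  rw [h2] at h
  exact h

/-- Expansion in all slots. -/
theorem ah_multi {s : ℕ} (T : MultilinearMap ℂ (fun _ : Fin s => A) W) (G : Fin s → Set A)
    (c : Fin s → ℝ) (P : Fin s → A) (h : ∀ i, P i ∈ AH (G i) (c i)) :
    T P ∈ AH {x | ∃ Q : Fin s → A, (∀ i, Q i ∈ G i) ∧ x = T Q} (∏ i, c i) := by
  classical
  choose m w g hg hw he using h
  have h1 : T P = ∑ k : (∀ i : Fin s, Fin (m i)), (∏ i, w i (k i)) • T (fun i => g i (k i)) := by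
    have h2 : P = fun i => ∑ k, w i k • g i k := funext he
    rw [h2, MultilinearMap.map_sum]
    exact Finset.sum_congr rfl fun k _ => MultilinearMap.map_smul_univ T _ _
  rw [h1]
  refine ah_fintype _ _ (fun k => ⟨fun i => g i (k i), fun i => hg i _, rfl⟩) ?_
  calc ∑ k : (∀ i : Fin s, Fin (m i)), ‖∏ i, w i (k i)‖
      = ∑ k : (∀ i : Fin s, Fin (m i)), ∏ i, ‖w i (k i)‖ :=
        Finset.sum_congr rfl fun k _ => norm_prod _ _
    _ = ∏ i, ∑ k, ‖w i k‖ := (Fintype.prod_sum (fun i k => ‖w i k‖)).symm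
    _ ≤ ∏ i, c i :=
        Finset.prod_le_prod (fun i _ => Finset.sum_nonneg fun k _ => norm_nonneg _)
          fun i _ => hw i

end kit

section mono

variable {A : Type*} [CommRing A] {s : ℕ} {z : Fin s → A}

theorem mono_zero : (1 : A) ∈ Mono z 0 := ⟨fun _ => 0, by simp, by simp⟩

theorem mono_var (j : Fin s) : z j ∈ Mono z 1 := by
  classical
  refine ⟨Pi.single j 1, by simp, ?_⟩
  rw [Finset.prod_eq_single j]
  · simp
  · intro b _ hb
    simp [Pi.single_eq_of_ne hb]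
  · simp

theorem mono_mul {m n : ℕ} {P Q : A} (hP : P ∈ Mono z m) (hQ : Q ∈ Mono z n) :
    P * Q ∈ Mono z (m + n) := by
  obtain ⟨α, hα, rfl⟩ := hP
  obtain ⟨β, hβ, rfl⟩ := hQ
  refine ⟨fun i => α i + β i, by rw [Finset.sum_add_distrib, hα, hβ], ?_⟩
  rw [← Finset.prod_mul_distrib]
  exact Finset.prod_congr rfl fun i _ => (pow_add _ _ _).symm

theorem mono_pow {m : ℕ} {P : A} (hP : P ∈ Mono z m) (k : ℕ) : P ^ k ∈ Mono z (k * m) := by
  induction k with
  | zero => simpa using mono_zero (z := z)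
  | succ k ih =>
    rw [pow_succ, Nat.succ_mul]
    exact mono_mul ih hP

/-- A monomial of positive degree is a variable times a monomial. -/
theorem mono_succ {n : ℕ} {P : A} (hP : P ∈ Mono z (n + 1)) :
    ∃ (j : Fin s) (R : A), R ∈ Mono z n ∧ P = z j * R := by
  classical
  obtain ⟨α, hα, rfl⟩ := hP
  have h1 : ∃ j, α j ≠ 0 := by
    by_contra hcon
    have h2 : ∑ i, α i = 0 := Finset.sum_eq_zero fun i _ => by
      by_contra h3
      exact hcon ⟨i, h3⟩
    omega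
  obtain ⟨j, hj⟩ := h1
  refine ⟨j, ∏ i, z i ^ (Function.update α j (α j - 1)) i, ⟨_, ?_, rfl⟩, ?_⟩
  · rw [Finset.sum_update_of_mem (Finset.mem_univ j)]
    have h3 := Finset.add_sum_erase Finset.univ α (Finset.mem_univ j)
    rw [Finset.sdiff_singleton_eq_erase]
    omega
  · rw [← Finset.mul_prod_erase Finset.univ (fun i => z i ^ α i) (Finset.mem_univ j),
      ← Finset.mul_prod_erase Finset.univ
        (fun i => z i ^ (Function.update α j (α j - 1)) i) (Finset.mem_univ j)]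
    have h4 : ∏ x ∈ Finset.univ.erase j, z x ^ (Function.update α j (α j - 1)) x
        = ∏ x ∈ Finset.univ.erase j, z x ^ α x :=
      Finset.prod_congr rfl fun i hi => by
        rw [Function.update_of_ne (Finset.ne_of_mem_erase hi)]
    rw [h4, Function.update_self, ← mul_assoc, ← pow_succ']
    have h5 : α j - 1 + 1 = α j := by omega
    rw [h5]

variable [Algebra ℂ A]

/-- Multiplication by a fixed element. -/
theorem ah_mul_left {G G' : Set A} {c : ℝ} (a : A) {x : A} (hx : x ∈ AH G c)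
    (h : ∀ g ∈ G, a * g ∈ G') : a * x ∈ AH G' c :=
  ah_map (LinearMap.mulLeft ℂ a) hx h

/-- Products. -/
theorem ah_mul {G G' H : Set A} {c c' : ℝ} {x y : A} (hx : x ∈ AH G c) (hy : y ∈ AH G' c')
    (h : ∀ g ∈ G, ∀ g' ∈ G', g * g' ∈ H) : x * y ∈ AH H (c * c') := by
  refine ah_bind (ah_nonneg hy) (G := {u | ∃ g ∈ G, u = g * y}) ?_ ?_
  · have h1 := ah_map (LinearMap.mulRight ℂ y) (G' := {u | ∃ g ∈ G, u = g * y}) hx
      (fun g hg => ⟨g, hg, rfl⟩)
    exact h1
  · rintro _ ⟨g, hg, rfl⟩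
    exact ah_mul_left g hy fun g' hg' => h g hg g' hg'

/-- Products of combinations of monomials. -/
theorem ah_mono_mul {m n : ℕ} {c c' : ℝ} {x y : A} (hx : x ∈ AH (Mono z m) c)
    (hy : y ∈ AH (Mono z n) c') : x * y ∈ AH (Mono z (m + n)) (c * c') :=
  ah_mul hx hy fun _ hg _ hg' => mono_mul hg hg'

/-- A linear form with norm at most one. -/
theorem ah_lin (l : Fin s → ℂ) {c : ℝ} (hl : ∑ j, ‖l j‖ ≤ c) :
    ∑ j, l j • z j ∈ AH (Mono z 1) c :=
  ah_fintype _ _ (fun j => mono_var j) hl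

theorem ah_mono_pow {m : ℕ} {c : ℝ} {x : A} (hx : x ∈ AH (Mono z m) c) (k : ℕ) :
    x ^ k ∈ AH (Mono z (k * m)) (c ^ k) := by
  induction k with
  | zero =>
    rw [pow_zero, pow_zero, Nat.zero_mul]
    exact ah_mem mono_zero
  | succ k ih =>
    rw [pow_succ, pow_succ, Nat.succ_mul]
    exact ah_mono_mul ih hx

end mono

end Vale.Agent.P181.H881
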